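import Vale.Agent.P267.H821.LBNF
import Vale.Agent.P267.H509.CWCurv

/-!
# P267 / H821 (D-LBNF): the curvature of `(L, a)` in a holomorphic frame
-/

set_option linter.unusedVariables false
set_option linter.unusedSectionVars false

open scoped Manifold ContDiff ComplexConjugate Matrix ComplexOrder Topology
open MeasureTheory Set Filter

noncomputable section

namespace Vale.Agent.P267.H821

open FL H757 H509

variable {X : Type*} [TopologicalSpace X] [ChartedSpace C2 X] [IsManifold 𝓘(ℂ, C2) ω X]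
variable {ι : Type} [Fintype ι] [DecidableEq ι]

theorem HolFrame.fr {L : LB X ι} {a : X → Fin 2 → ℂ} {U : Set X}
    {e : X → EuclideanSpace ℂ ι} (hf : HolFrame L a U e) : Fr L U e where
  isOpen := hf.isOpen
  smooth x hx k := by
    have h1 := hf.reg _ (chart_mem_atlas C2 x) _ (mem_chart_target C2 x)
      (by rwa [(chartAt C2 x).left_inv (mem_chart_source C2 x)])
    exact ((EuclideanSpace.proj k : EuclideanSpace ℂ ι →L[ℂ] ℂ).restrictScalars
      ℝ).contDiff.contDiffAt.comp _ h1
  sec := hf.sec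
  ne := hf.ne

/-- components of `∂̄ s` -/
theorem dbar0_component {s : X → EuclideanSpace ℂ ι} {x : X}
    (hs : DifferentiableAt ℝ (fun z => s ((chartAt C2 x).symm z)) (chartAt C2 x x))
    (j : Fin 2) (k : ι) : dbar0 0 s x j k = dbar0 0 (fun y => s y k) x j := by
  have h1 : loc0 0 (chartAt C2 x) s = fun z => s ((chartAt C2 x).symm z) := LB.loc0_zero _ _
  have h2 : loc0 0 (chartAt C2 x) (fun y => s y k) = fun z => s ((chartAt C2 x).symm z) k :=
    LB.loc0_zero _ _
  unfold dbar0
  rw [h1, h2]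
  exact (dzb_clm (EuclideanSpace.proj k : EuclideanSpace ℂ ι →L[ℂ] ℂ) hs j).symm

/-- for a holomorphic frame the `(0,1)`-part of `⟨e, de⟩/|e|²` is `-a` -/
theorem HolFrame.the_eq {L : LB X ι} {a : X → Fin 2 → ℂ} {U : Set X}
    {e : X → EuclideanSpace ℂ ι} (hf : HolFrame L a U e) {x : X} (hx : x ∈ U) (j : Fin 2) :
    the e x j = -a x j := by
  have hfr := hf.fr
  have hd := (hf.reg _ (chart_mem_atlas C2 x) _ (mem_chart_target C2 x)
      (by rwa [(chartAt C2 x).left_inv (mem_chart_source C2 x)])).differentiableAt (by simp)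
  have h1 := congrFun (hf.hol x hx) j
  have h2 : ∀ k, (∑ l, L.P x k l * dbar0 0 (fun y => e y l) x j) + a x j * e x k = 0 := by
    intro k
    have h3 := congrArg (fun v : EuclideanSpace ℂ ι => v k) h1
    simp only [LB.db0, Pi.zero_apply, PiLp.add_apply, PiLp.smul_apply, PiLp.zero_apply,
      smul_eq_mul, act_apply, dbar0_component hd] at h3
    exact h3
  have h4 : ∑ k, Ts e x k * ((∑ l, L.P x k l * dbar0 0 (fun y => e y l) x j) + a x j * e x k) =
      0 := Finset.sum_eq_zero fun k _ => by rw [h2 k, mul_zero]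
  have h5 : ∑ k, Ts e x k * ((∑ l, L.P x k l * dbar0 0 (fun y => e y l) x j) + a x j * e x k) =
      the e x j + a x j := by
    simp only [mul_add, Finset.sum_add_distrib]
    congr 1
    · have h6 : ∀ k, Ts e x k * (∑ l, L.P x k l * dbar0 0 (fun y => e y l) x j) =
          (Ts e x k * e x k) * the e x j := by
        intro k
        rw [the, Finset.mul_sum, Finset.mul_sum]
        exact Finset.sum_congr rfl fun l _ => by rw [hfr.P_eq hx]; ring
      simp only [h6, ← Finset.sum_mul, hfr.Ts_mul hx, one_mul]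
    · have h7 : ∀ k, Ts e x k * (a x j * e x k) = (Ts e x k * e x k) * a x j := fun k => by ring
      simp only [h7, ← Finset.sum_mul, hfr.Ts_mul hx, one_mul]
  rw [h5] at h4
  exact eq_neg_of_add_eq_zero_left h4

/-- derivative of the logarithm of a positive function -/
theorem dz_log {r : C2 → ℝ} {z : C2} (hr : DifferentiableAt ℝ r z) (h0 : r z ≠ 0) (j : Fin 2) :
    dz j (fun y => (Real.log (r y) : ℂ)) z = (r z : ℂ)⁻¹ * dz j (fun y => (r y : ℂ)) z := by
  have h1 : ∀ v, fderiv ℝ (fun y => (Real.log (r y) : ℂ)) z v =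
      (r z : ℂ)⁻¹ * fderiv ℝ (fun y => (r y : ℂ)) z v := by
    intro v
    have e1 : HasFDerivAt (fun y => Real.log (r y)) ((r z)⁻¹ • fderiv ℝ r z) z :=
      hr.hasFDerivAt.log h0
    have e2 := (Complex.ofRealCLM.hasFDerivAt.comp z e1).fderiv
    have e3 := (Complex.ofRealCLM.hasFDerivAt.comp z hr.hasFDerivAt).fderiv
    have e4 : (fun y => (Real.log (r y) : ℂ)) = (Complex.ofRealCLM ∘ fun y => Real.log (r y)) := rfl
    have e5 : (fun y => (r y : ℂ)) = (Complex.ofRealCLM ∘ r) := rfl
    rw [e4, e5, e2, e3]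
    simp
  unfold dz
  rw [h1, h1]
  simp only [smul_eq_mul]
  ring

theorem norm_sq_eq_sum (v : EuclideanSpace ℂ ι) : ((‖v‖ ^ 2 : ℝ) : ℂ) = ∑ k, conj (v k) * v k := by
  rw [EuclideanSpace.norm_sq_eq]
  push_cast
  exact Finset.sum_congr rfl fun k _ => by
    rw [← Complex.normSq_eq_conj_mul_self, Complex.normSq_eq_norm_sq]; push_cast; rfl

/-- `∂ log |e|² = gam e - conj a` for a holomorphic frame -/
theorem HolFrame.dz_log_eventually {L : LB X ι} {a : X → Fin 2 → ℂ} {U : Set X}
    {e : X → EuclideanSpace ℂ ι} (hf : HolFrame L a U e) {c : Ch X} (hc : c ∈ atlas C2 X) {x : X}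
    (hx : x ∈ c.source) (hxU : x ∈ U) (i : Fin 2) :
    dz i (fun z => (Real.log (‖e (c.symm z)‖ ^ 2) : ℂ)) =ᶠ[𝓝 (c x)]
      fun z => loc10 c (gam e) z i - conj (loc1 0 c a z i) := by
  have hfr := hf.fr
  filter_upwards [hfr.eventually hx hxU, hfr.loc10_gam_eventually hc hx hxU i,
    hfr.loc1_the_eventually hc hx hxU i] with z hz h1 h2
  have hne : e (c.symm z) ≠ 0 := hf.ne _ hz.2
  have hck : ∀ k, DifferentiableAt ℝ (fun z => e (c.symm z) k) z := by
    intro k
    have := hfr.contDiffAt hc (c.map_target hz.1) hz.2 k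
    rw [c.right_inv hz.1] at this
    exact this.differentiableAt (by simp)
  have hn : DifferentiableAt ℝ (fun z => ‖e (c.symm z)‖ ^ 2) z :=
    (((hf.reg c hc z hz.1 hz.2).norm_sq ℝ).differentiableAt (by simp))
  have hne2 : ‖e (c.symm z)‖ ^ 2 ≠ 0 := by
    have := norm_pos_iff.2 hne
    positivity
  rw [dz_log hn hne2]
  have hH : (fun y => ((‖e (c.symm y)‖ ^ 2 : ℝ) : ℂ)) =
      fun y => ∑ k, conj (e (c.symm y) k) * e (c.symm y) k :=
    funext fun y => norm_sq_eq_sum _
  rw [hH, dz_sum _ fun k _ => (differentiableAt_conj (hck k)).fun_mul (hck k)]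
  have h3 : ∀ k, dz i (fun y => conj (e (c.symm y) k) * e (c.symm y) k) z =
      conj (e (c.symm z) k) * dz i (fun y => e (c.symm y) k) z +
        conj (dzb i (fun y => e (c.symm y) k) z) * e (c.symm z) k := by
    intro k
    rw [dz_mul (differentiableAt_conj (hck k)) (hck k), dz_conj (hck k)]
  simp only [h3]
  have h4 : loc1 0 c a z i = -loc1 0 c (the e) z i := by
    have : the e (c.symm z) = fun j => -a (c.symm z) j := funext fun j => hf.the_eq hz.2 j
    simp only [loc1, this, smul_neg, Finset.sum_neg_distrib, neg_neg]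
  rw [h4, h1, h2, map_neg, sub_neg_eq_add]
  set H : ℂ := ∑ k, conj (e (c.symm z) k) * e (c.symm z) k with hHd
  have hHr : conj H = H := by
    rw [hHd, map_sum]
    exact Finset.sum_congr rfl fun k _ => by rw [map_mul, Complex.conj_conj, mul_comm]
  have hHn : ((‖e (c.symm z)‖ ^ 2 : ℝ) : ℂ) = H := norm_sq_eq_sum _
  rw [hHn, map_sum, Finset.mul_sum, ← Finset.sum_add_distrib]
  refine Finset.sum_congr rfl fun k _ => ?_
  have e1 : Ts e (c.symm z) k = conj (e (c.symm z) k) / H := rfl
  rw [e1, map_mul, map_div₀, hHr, Complex.conj_conj]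
  field_simp

/-- **curvature in a holomorphic frame**: `∂∂̄ (-log |e|²) = ` the `(1,1)`-part of `chern` -/
theorem HolFrame.ddz_log {L : LB X ι} {a : X → Fin 2 → ℂ} (ha : Reg1 ∞ 0 a) {U : Set X}
    {e : X → EuclideanSpace ℂ ι} (hf : HolFrame L a U e) {x : X} (hx : x ∈ U) :
    H332.ddz (fun z => (Real.log (‖e ((chartAt C2 x).symm z)‖ ^ 2) : ℂ)) (chartAt C2 x x) =
      -(L.chern a).f11 x := by
  set c := chartAt C2 x with hcd
  have hc : c ∈ atlas C2 X := chart_mem_atlas C2 x
  have hxc : x ∈ c.source := mem_chart_source C2 x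
  have hfr := hf.fr
  have hne : e (c.symm (c x)) ≠ 0 := by rw [c.left_inv hxc]; exact hf.ne x hx
  have hsm : ContDiffAt ℝ ∞ (fun z => (Real.log (‖e (c.symm z)‖ ^ 2) : ℂ)) (c x) := by
    refine H332.contDiffAt_ofReal (ContDiffAt.log ((hf.reg c hc _ (mem_chart_target C2 x)
      (by rwa [c.left_inv hxc])).norm_sq ℝ) ?_)
    have := norm_pos_iff.2 hne
    positivity
  ext i j
  rw [H332.ddz_apply, dz_dzb_comm (hsm.of_le (WithTop.coe_le_coe.2 le_top)),
    dzb_congr (hf.dz_log_eventually hc hxc hx i)]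
  have hg : DifferentiableAt ℝ (fun z => loc10 c (gam e) z i) (c x) :=
    differentiableAt_pi.1 ((hfr.gam_smooth hc hxc hx).differentiableAt (by simp)) i
  have haa : DifferentiableAt ℝ (fun z => loc1 0 c a z i) (c x) :=
    differentiableAt_pi.1 ((ha.contDiffAt hc (mem_chart_target C2 x)).differentiableAt
      (by simp)) i
  rw [dzb_sub hg (differentiableAt_conj haa)]
  have h1 : (L.chern a).f11 x i j = (L.F11 x + (del1 a x + dbar10 (fun y i => -conj (a y i)) x)) i j
    := rfl
  rw [Matrix.neg_apply, h1, Matrix.add_apply, Matrix.add_apply, hfr.F11_eq hx i j,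
    Matrix.add_apply]
  have h2 : del1 (the e) x i j = -del1 a x i j := by
    simp only [del1, Matrix.of_apply, ← hcd]
    have h3 : (fun z => loc1 0 c (the e) z j) =ᶠ[𝓝 (c x)] fun z => -loc1 0 c a z j := by
      filter_upwards [hfr.eventually hxc hx] with z hz
      have : the e (c.symm z) = fun j => -a (c.symm z) j := funext fun j => hf.the_eq hz.2 j
      simp only [loc1, this, smul_neg, Finset.sum_neg_distrib]
    rw [dz_congr h3, dz_neg]
  have h4 : dbar10 (gam e) x i j = -dzb j (fun z => loc10 c (gam e) z i) (c x) := rfl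
  have h5 : dbar10 (fun y i => -conj (a y i)) x i j =
      dzb j (fun z => conj (loc1 0 c a z i)) (c x) := by
    have h6 : dbar10 (fun y i => -conj (a y i)) x i j =
      -dzb j (fun z => loc10 c (fun y i => -conj (a y i)) z i) (c x) := rfl
    have h7 : (fun z => loc10 c (fun y i => -conj (a y i)) z i) =
        fun z => -conj (loc1 0 c a z i) := by
      funext z
      simp only [loc10, loc1, zpow_zero, smul_eq_mul, map_sum, map_mul,
        Complex.conj_conj, mul_neg, Finset.sum_neg_distrib, map_one, one_mul]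
    rw [h6, h7, dzb_neg, neg_neg]
  rw [h2, h4, h5]
  ring

end Vale.Agent.P267.H821
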