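import Vale.Agent.P267.H469.Del2
import Vale.Agent.P267.H399.Calc

/-!
# P267 / H821 (D-LBNF): rank one projectors and local coefficients of sections
-/

set_option linter.unusedVariables false
set_option linter.unusedSectionVars false

open scoped Manifold ContDiff ComplexConjugate Matrix ComplexOrder Topology
open MeasureTheory Set Filter

noncomputable section

namespace Vale.Agent.P267.H821

open FL

section linalg

variable {ι : Type} [Fintype ι] [DecidableEq ι]

theorem act_apply (M : Matrix ι ι ℂ) (v : EuclideanSpace ℂ ι) (i : ι) :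
    LB.act M v i = ∑ j, M i j * v j := rfl

theorem act_act (M N : Matrix ι ι ℂ) (v : EuclideanSpace ℂ ι) :
    LB.act M (LB.act N v) = LB.act (M * N) v := by
  unfold LB.act
  simp

theorem act_smul (M : Matrix ι ι ℂ) (c : ℂ) (v : EuclideanSpace ℂ ι) :
    LB.act M (c • v) = c • LB.act M v := by
  ext i
  simp only [act_apply, PiLp.smul_apply, smul_eq_mul, Finset.mul_sum]
  exact Finset.sum_congr rfl fun j _ => by ring

theorem act_add (M : Matrix ι ι ℂ) (v w : EuclideanSpace ℂ ι) :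
    LB.act M (v + w) = LB.act M v + LB.act M w := by
  ext i
  simp only [act_apply, PiLp.add_apply, mul_add, Finset.sum_add_distrib]

/-- the matrix `v v^*` -/
def vv (v : EuclideanSpace ℂ ι) : Matrix ι ι ℂ := Matrix.of fun i j => v i * conj (v j)

theorem inner_eq_sum (v w : EuclideanSpace ℂ ι) : inner ℂ v w = ∑ i, conj (v i) * w i := by
  rw [PiLp.inner_apply]
  exact Finset.sum_congr rfl fun i _ => by rw [RCLike.inner_apply]; ring

theorem inner_self_ne {v : EuclideanSpace ℂ ι} (hv : v ≠ 0) : (inner ℂ v v : ℂ) ≠ 0 :=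
  inner_self_ne_zero.2 hv

/-- a rank one orthogonal projector is `v v^* / |v|^2` for every non-zero `v` in its range -/
theorem proj_eq {P : Matrix ι ι ℂ} (hh : Pᴴ = P) (hi : P * P = P) (ht : P.trace = 1)
    {v : EuclideanSpace ℂ ι} (hv : LB.act P v = v) (hv0 : v ≠ 0) :
    P = (inner ℂ v v : ℂ)⁻¹ • vv v := by
  set N : ℂ := inner ℂ v v with hN
  have hN0 : N ≠ 0 := inner_self_ne hv0
  have hNr : conj N = N := by rw [hN]; exact inner_conj_symm v v
  have hPv : ∀ i, ∑ j, P i j * v j = v i := fun i => congrArg (fun u : EuclideanSpace ℂ ι => u i) hv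
  have hP' : ∀ i j, P i j = conj (P j i) := fun i j => by
    conv_lhs => rw [← hh]
    rfl
  have hvP : ∀ j, ∑ i, conj (v i) * P i j = conj (v j) := by
    intro j
    rw [← hPv j, map_sum]
    exact Finset.sum_congr rfl fun i _ => by rw [hP' i j, map_mul]; ring
  have h1 : P * vv v = vv v := by
    ext i j
    simp only [Matrix.mul_apply, vv, Matrix.of_apply, ← mul_assoc, ← Finset.sum_mul, hPv]
  have h2 : vv v * P = vv v := by
    ext i j
    simp only [Matrix.mul_apply, vv, Matrix.of_apply, mul_assoc, ← Finset.mul_sum, hvP]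
  have h3 : vv v * vv v = N • vv v := by
    ext i j
    simp only [Matrix.mul_apply, vv, Matrix.of_apply, Matrix.smul_apply, smul_eq_mul, hN,
      inner_eq_sum]
    rw [Finset.sum_mul]
    exact Finset.sum_congr rfl fun k _ => by ring
  have hvh : (vv v)ᴴ = vv v := by
    ext i j
    simp [vv, Matrix.conjTranspose_apply, mul_comm]
  have htr : (vv v).trace = N := by
    simp only [Matrix.trace, Matrix.diag, vv, Matrix.of_apply, hN, inner_eq_sum]
    exact Finset.sum_congr rfl fun k _ => by ring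
  -- the difference `Q`
  set Q : Matrix ι ι ℂ := P - N⁻¹ • vv v with hQ
  have hQQ : Q * Q = Q := by
    rw [hQ, sub_mul, mul_sub, mul_sub, hi, Matrix.mul_smul, h1, Matrix.smul_mul, h2,
      Matrix.smul_mul, Matrix.mul_smul, h3, smul_smul, smul_smul, mul_assoc,
      inv_mul_cancel₀ hN0, mul_one, sub_self, sub_zero]
  have hQh : Qᴴ = Q := by
    rw [hQ, Matrix.conjTranspose_sub, Matrix.conjTranspose_smul, hh, hvh]
    congr 2
    change conj (N⁻¹) = N⁻¹
    rw [map_inv₀, hNr]
  have hQt : Q.trace = 0 := by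
    rw [hQ, Matrix.trace_sub, Matrix.trace_smul, ht, htr, smul_eq_mul, inv_mul_cancel₀ hN0, sub_self]
  have hQ0 : Q = 0 := by
    have : (Qᴴ * Q).trace = 0 := by rw [hQh, hQQ, hQt]
    exact Matrix.trace_conjTranspose_mul_self_eq_zero_iff.1 this
  exact sub_eq_zero.1 hQ0

theorem act_vv (v w : EuclideanSpace ℂ ι) : LB.act (vv v) w = (inner ℂ v w : ℂ) • v := by
  ext i
  simp only [act_apply, vv, Matrix.of_apply, PiLp.smul_apply, smul_eq_mul, inner_eq_sum,
    Finset.sum_mul]
  exact Finset.sum_congr rfl fun j _ => by ring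

theorem smul_act (c : ℂ) (M : Matrix ι ι ℂ) (w : EuclideanSpace ℂ ι) :
    LB.act (c • M) w = c • LB.act M w := by
  ext i
  simp only [act_apply, Matrix.smul_apply, PiLp.smul_apply, smul_eq_mul, Finset.mul_sum]
  exact Finset.sum_congr rfl fun j _ => by ring

/-- the range is one-dimensional -/
theorem act_eq_smul {P : Matrix ι ι ℂ} (hh : Pᴴ = P) (hi : P * P = P) (ht : P.trace = 1)
    {v : EuclideanSpace ℂ ι} (hv : LB.act P v = v) (hv0 : v ≠ 0) (w : EuclideanSpace ℂ ι) :
    LB.act P w = ((inner ℂ v w : ℂ) / inner ℂ v v) • v := by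
  rw [proj_eq hh hi ht hv hv0, smul_act, act_vv, smul_smul]
  congr 1
  field_simp

theorem eq_smul {P : Matrix ι ι ℂ} (hh : Pᴴ = P) (hi : P * P = P) (ht : P.trace = 1)
    {v : EuclideanSpace ℂ ι} (hv : LB.act P v = v) (hv0 : v ≠ 0) {w : EuclideanSpace ℂ ι}
    (hw : LB.act P w = w) : w = ((inner ℂ v w : ℂ) / inner ℂ v v) • v := by
  rw [← act_eq_smul hh hi ht hv hv0, hw]

end linalg

/-! ### the coefficient of a section with respect to a local frame -/

variable {X : Type*} [TopologicalSpace X] [ChartedSpace C2 X]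
variable {ι : Type} [Fintype ι] [DecidableEq ι]

/-- holomorphic frame of `(L, a)` on the open set `U` (all conditions are local) -/
structure HolFrame (L : LB X ι) (a : X → Fin 2 → ℂ) (U : Set X) (e : X → EuclideanSpace ℂ ι) :
    Prop where
  isOpen : IsOpen U
  reg : ∀ c ∈ atlas C2 X, ∀ z ∈ c.target, c.symm z ∈ U →
    ContDiffAt ℝ ∞ (fun w => e (c.symm w)) z
  sec : ∀ x ∈ U, LB.act (L.P x) (e x) = e x
  ne : ∀ x ∈ U, e x ≠ 0
  hol : ∀ x ∈ U, L.db0 a 0 e x = 0

/-- the coefficient of `s` with respect to `e` -/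
def coef (e s : X → EuclideanSpace ℂ ι) (x : X) : ℂ :=
  (inner ℂ (e x) (s x) : ℂ) / inner ℂ (e x) (e x)

theorem coef_smul {L : LB X ι} {e s : X → EuclideanSpace ℂ ι} {x : X}
    (he : LB.act (L.P x) (e x) = e x) (hs : LB.act (L.P x) (s x) = s x)
    (hx : e x ≠ 0) : s x = coef e s x • e x :=
  eq_smul (L.herm x) (L.idem x) (L.tr x) he hx hs

theorem coef_eq_zero {L : LB X ι} {e s : X → EuclideanSpace ℂ ι} {x : X}
    (he : LB.act (L.P x) (e x) = e x) (hs : LB.act (L.P x) (s x) = s x)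
    (hx : e x ≠ 0) : coef e s x = 0 ↔ s x = 0 := by
  constructor
  · intro h
    rw [coef_smul he hs hx, h, zero_smul]
  · intro h
    rw [coef, h, inner_zero_right, zero_div]

theorem loc0_coef {κ : ℤ} (c : Ch X) (e s : X → EuclideanSpace ℂ ι) (z : C2) :
    loc0 κ c (coef e s) z = (inner ℂ (e (c.symm z)) (loc0 κ c s z) : ℂ) /
      inner ℂ (e (c.symm z)) (e (c.symm z)) := by
  rw [loc0, loc0, coef, inner_smul_right, smul_eq_mul, mul_div_assoc]

theorem smooth_comp_symm [IsManifold 𝓘(ℂ, C2) ω X] {n : WithTop ℕ∞} {V : Type*} [NormedAddCommGroup V] [NormedSpace ℂ V]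
    {s : X → V} (hs : Reg0 n 0 s) {c : Ch X} (hc : c ∈ atlas C2 X) {z : C2} (hz : z ∈ c.target) :
    ContDiffAt ℝ n (fun w => s (c.symm w)) z := by
  have := (H469.r0comp hs hc).contDiffAt (c.open_target.mem_nhds hz)
  exact this

theorem coef_contDiffAt [IsManifold 𝓘(ℂ, C2) ω X] {n : WithTop ℕ∞} {κ : ℤ}
    {e s : X → EuclideanSpace ℂ ι} (hs : Reg0 n κ s) {c : Ch X}
    (hc : c ∈ atlas C2 X) {z : C2} (hz : z ∈ c.target)
    (he : ContDiffAt ℝ n (fun w => e (c.symm w)) z) (hne : e (c.symm z) ≠ 0) :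
    ContDiffAt ℝ n (loc0 κ c (coef e s)) z := by
  have h1 : loc0 κ c (coef e s) = fun z => (inner ℂ (e (c.symm z)) (loc0 κ c s z) : ℂ) /
      inner ℂ (e (c.symm z)) (e (c.symm z)) := funext fun z => loc0_coef c e s z
  rw [h1]
  have h2 := he
  have h3 := hs.contDiffAt hc hz
  simp only [div_eq_mul_inv]
  exact (h2.inner ℂ h3).mul ((h2.inner ℂ h2).inv (inner_self_ne hne))

theorem dbar0_smul [IsManifold 𝓘(ℂ, C2) ω X] {V : Type*} [NormedAddCommGroup V] [NormedSpace ℂ V]
    {κ : ℤ} {g : X → ℂ} {e s : X → V} {x : X}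
    (hg : DifferentiableAt ℝ (loc0 κ (chartAt C2 x) g) (chartAt C2 x x))
    (he : DifferentiableAt ℝ (fun z => e ((chartAt C2 x).symm z)) (chartAt C2 x x))
    (h : ∀ᶠ y in 𝓝 x, s y = g y • e y) (i : Fin 2) :
    dbar0 κ s x i = g x • dbar0 0 e x i + dbar0 κ g x i • e x := by
  set c := chartAt C2 x with hc
  have hx : x ∈ c.source := mem_chart_source C2 x
  have h1 : loc0 κ c s =ᶠ[𝓝 (c x)] fun z => loc0 κ c g z • (fun z => e (c.symm z)) z := by
    have h2 : Tendsto c.symm (𝓝 (c x)) (𝓝 x) := by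
      have := c.continuousAt_symm (c.map_source hx)
      rw [ContinuousAt, c.left_inv hx] at this
      exact this
    filter_upwards [h2.eventually h] with z hz
    rw [loc0, loc0, hz, smul_smul, smul_eq_mul]
  have h3 : loc0 0 c e = fun z => e (c.symm z) := LB.loc0_zero c e
  unfold dbar0
  rw [← hc, dzb_congr h1, dzb_smul hg he, h3, c.left_inv hx]
  congr 2
  rw [hc, loc0_chartAt]

/-- a holomorphic section is `g • e` with `g` holomorphic -/
theorem coef_dbar0 [IsManifold 𝓘(ℂ, C2) ω X] {L : LB X ι} {a : X → Fin 2 → ℂ} {U : Set X}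
    {e s : X → EuclideanSpace ℂ ι} (hf : HolFrame L a U e) {κ : ℤ}
    (hs : Reg0 ∞ κ s) (hsec : L.Sec s) {x : X} (hx : x ∈ U) (h0 : L.db0 a κ s x = 0) :
    dbar0 κ (coef e s) x = 0 := by
  funext i
  have hne := hf.ne x hx
  have hxc : x ∈ (chartAt C2 x).source := mem_chart_source C2 x
  have hne' : e ((chartAt C2 x).symm (chartAt C2 x x)) ≠ 0 := by
    rwa [(chartAt C2 x).left_inv hxc]
  have hreg := hf.reg _ (chart_mem_atlas C2 x) _ (mem_chart_target C2 x)
    (by rwa [(chartAt C2 x).left_inv hxc])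
  have h1 := dbar0_smul (κ := κ) (g := coef e s) (e := e) (s := s) (x := x)
    ((coef_contDiffAt hs (chart_mem_atlas C2 x) (mem_chart_target C2 x) hreg
      hne').differentiableAt (by simp))
    (hreg.differentiableAt (by simp))
    (by
      filter_upwards [hf.isOpen.mem_nhds hx] with y hy
      exact coef_smul (hf.sec y hy) (hsec y) (hf.ne y hy)) i
  have h2 := congrFun h0 i
  have h3 := congrFun (hf.hol x hx) i
  rw [LB.db0, h1, act_add, act_smul, act_smul, hf.sec x hx] at h2
  rw [LB.db0] at h3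
  rw [coef_smul (hf.sec x hx) (hsec x) hne] at h2
  simp only [Pi.zero_apply] at h2 h3 ⊢
  have h4 : coef e s x • (LB.act (L.P x) (dbar0 0 e x i) + a x i • e x) +
      dbar0 κ (coef e s) x i • e x = 0 := by
    rw [← h2]
    module
  rw [h3, smul_zero, zero_add] at h4
  exact (smul_eq_zero.1 h4).resolve_right hne

theorem coef_hol [IsManifold 𝓘(ℂ, C2) ω X] {L : LB X ι} {a : X → Fin 2 → ℂ} {U : Set X}
    {e s : X → EuclideanSpace ℂ ι} (hf : HolFrame L a U e) {κ : ℤ}
    (hs : Reg0 ∞ κ s) (hsec : L.Sec s) (h0 : ∀ x ∈ U, L.db0 a κ s x = 0) :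
    HolOn κ (coef e s) U := by
  intro c hc z hz
  refine DifferentiableAt.differentiableWithinAt ?_
  have hne : e (c.symm z) ≠ 0 := hf.ne _ hz.2
  have hd := (coef_contDiffAt hs hc hz.1 (hf.reg c hc z hz.1 hz.2) hne).differentiableAt (by simp)
  rw [differentiableAt_complex_iff hd]
  intro i
  rw [← loc1_dbar0 hc hz.1 hd i, loc1]
  rw [coef_dbar0 hf hs hsec hz.2 (h0 _ hz.2)]
  simp

end Vale.Agent.P267.H821
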