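import Vale.Agent.P267.H821.Frame
import Vale.Agent.P267.H332.Pair.Curv

/-!
# P267 / H821 (D-LBNF): `|s|²` of a holomorphic section of `K^κ ⊗ (L, a)` is a norm function

The metric on `K^κ` is a weight `ρ`: the squared norm of a `K^κ ⊗ L`-valued function `s` is
`‖s x‖² ρ x`; in a chart the weight has the component `locW κ ρ c`. For a Hermitian metric `h` on
the manifold, `ρ = (det h)^(-κ)`.
-/

set_option linter.unusedVariables false
set_option linter.unusedSectionVars false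

open scoped Manifold ContDiff ComplexConjugate Matrix ComplexOrder Topology
open MeasureTheory Set Filter

noncomputable section

namespace Vale.Agent.P267.H821

open FL H757

variable {X : Type*} [TopologicalSpace X] [ChartedSpace C2 X]
variable {ι : Type} [Fintype ι] [DecidableEq ι]

/-- the component of the weight `ρ` (a metric on `K^κ`) in the chart `c` -/
def locW (κ : ℤ) (ρ : X → ℝ) (c : Ch X) (z : C2) : ℝ :=
  ρ (c.symm z) * (‖(jac c (c.symm z)).det‖ ^ 2) ^ (-κ)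

/-- `ρ` is a smooth metric on `K^κ` -/
structure IsWt (κ : ℤ) (ρ : X → ℝ) : Prop where
  pos : ∀ x, 0 < ρ x
  smooth : ∀ c ∈ atlas C2 X, ContDiffOn ℝ ∞ (locW κ ρ c) c.target

/-- squared norm of a `K^κ ⊗ L`-valued function -/
def nsqW (ρ : X → ℝ) (s : X → EuclideanSpace ℂ ι) (x : X) : ℝ := ‖s x‖ ^ 2 * ρ x

/-- local weight of `nsqW` -/
def wt (κ : ℤ) (ρ : X → ℝ) (c : Ch X) (e : X → EuclideanSpace ℂ ι) (x : X) : ℝ :=
  -Real.log (‖e x‖ ^ 2) - Real.log (locW κ ρ c (c x))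

variable [IsManifold 𝓘(ℂ, C2) ω X]

theorem IsWt.locW_pos {κ : ℤ} {ρ : X → ℝ} (h : IsWt κ ρ) {c : Ch X} (hc : c ∈ atlas C2 X) {z : C2}
    (hz : z ∈ c.target) : 0 < locW κ ρ c z := by
  have h1 : (jac c (c.symm z)).det ≠ 0 := jac_det_ne_zero hc (c.map_target hz)
  have h2 : 0 < ‖(jac c (c.symm z)).det‖ := norm_pos_iff.2 h1
  have h3 := h.pos (c.symm z)
  unfold locW
  positivity

theorem IsWt.contDiffOn_log {κ : ℤ} {ρ : X → ℝ} (h : IsWt κ ρ) {c : Ch X} (hc : c ∈ atlas C2 X) :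
    ContDiffOn ℝ ∞ (fun z => Real.log (locW κ ρ c z)) c.target :=
  (h.smooth c hc).log fun z hz => (h.locW_pos hc hz).ne'

theorem contDiffOn_wt {κ : ℤ} {ρ : X → ℝ} (h : IsWt κ ρ) {c : Ch X}
    (hc : c ∈ atlas C2 X) {U : Set X} {e : X → EuclideanSpace ℂ ι}
    (he : ∀ z ∈ c.target, c.symm z ∈ U → ContDiffAt ℝ ∞ (fun w => e (c.symm w)) z)
    (hne : ∀ x ∈ U, e x ≠ 0) :
    ContDiffOn ℝ ∞ (fun z => wt κ ρ c e (c.symm z)) (c.target ∩ c.symm ⁻¹' U) := by
  have h1 : ContDiffOn ℝ ∞ (fun z => -Real.log (‖e (c.symm z)‖ ^ 2) -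
      Real.log (locW κ ρ c z)) (c.target ∩ c.symm ⁻¹' U) := by
    have h2 : ContDiffOn ℝ ∞ (fun z => e (c.symm z)) (c.target ∩ c.symm ⁻¹' U) :=
      fun z hz => (he z hz.1 hz.2).contDiffWithinAt
    refine ((ContDiffOn.log (h2.norm_sq ℝ) fun z hz => ?_).neg).sub
      ((h.contDiffOn_log hc).mono inter_subset_left)
    have := norm_pos_iff.2 (hne _ hz.2)
    positivity
  refine h1.congr fun z hz => ?_
  rw [wt, c.right_inv hz.1]

theorem contMDiffOn_of_chart {c : Ch X} (hc : c ∈ atlas C2 X) {U : Set X} (hU : U ⊆ c.source)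
    {φ : X → ℝ} (h : ContDiffOn ℝ ∞ (fun z => φ (c.symm z)) (c.target ∩ c.symm ⁻¹' U)) :
    ContMDiffOn 𝓘(ℝ, C2) 𝓘(ℝ) ∞ φ U := by
  have := H757.isManifold_real (E := C2) (M := X) ∞
  have h1 : ContMDiffOn 𝓘(ℝ, C2) 𝓘(ℝ, C2) ∞ c U :=
    (contMDiffOn_of_mem_maximalAtlas (IsManifold.subset_maximalAtlas hc)).mono hU
  have h2 : ContMDiffOn 𝓘(ℝ, C2) 𝓘(ℝ) ∞ ((fun z => φ (c.symm z)) ∘ c) U :=
    (contMDiffOn_iff_contDiffOn.2 h).comp h1 fun x hx =>
      ⟨c.map_source (hU hx), by rw [mem_preimage, c.left_inv (hU hx)]; exact hx⟩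
  refine h2.congr fun x hx => ?_
  simp only [Function.comp_apply, c.left_inv (hU hx)]

/-- **local representation** of the squared norm of a holomorphic section of `K^κ ⊗ (L, a)` -/
theorem locRep {L : LB X ι} {a : X → Fin 2 → ℂ} {U : Set X}
    {e s : X → EuclideanSpace ℂ ι} (hf : HolFrame L a U e) {κ : ℤ} (hs : Reg0 ∞ κ s)
    (hsec : L.Sec s) (h0 : ∀ x ∈ U, L.db0 a κ s x = 0)
    (hnz : ∀ V : Set X, IsOpen V → V.Nonempty → ∃ x ∈ V, s x ≠ 0)
    {ρ : X → ℝ} (hρ : IsWt κ ρ) {c : Ch X} (hc : c ∈ atlas C2 X) :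
    LocRep C2 (nsqW ρ s) (U ∩ c.source) (fun x => loc0 κ c (coef e s) (c x)) (wt κ ρ c e) where
  isOpen := hf.isOpen.inter c.open_source
  hol := by
    have : IsManifold 𝓘(ℂ, C2) 1 X := IsManifold.of_le (n := ω) le_top
    refine H757.mdifferentiableOn_of_chart (IsManifold.subset_maximalAtlas hc) inter_subset_right ?_
    have h1 := coef_hol hf hs hsec h0 c hc
    refine (h1.mono fun z hz => ⟨hz.1, hz.2.1⟩).congr fun z hz => ?_
    simp only [Function.comp_apply, c.right_inv hz.1]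
  nz V hV hVU hne := by
    obtain ⟨x, hx, hsx⟩ := hnz V hV hne
    refine ⟨x, hx, ?_⟩
    rw [loc0_source (hVU hx).2]
    refine smul_ne_zero (zpow_ne_zero _ (jac_det_ne_zero hc (hVU hx).2)) ?_
    rw [Ne, coef_eq_zero (hf.sec x (hVU hx).1) (hsec x) (hf.ne x (hVU hx).1)]
    exact hsx
  smooth := by
    refine contMDiffOn_of_chart hc inter_subset_right ?_
    exact (contDiffOn_wt hρ hc (hf.reg c hc) hf.ne).mono fun z hz => ⟨hz.1, hz.2.1⟩
  eq x hx := by
    have hne := hf.ne x hx.1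
    have hd := hρ.pos x
    have hJ : 0 < ‖(jac c x).det‖ := norm_pos_iff.2 (jac_det_ne_zero hc hx.2)
    have he : 0 < ‖e x‖ := norm_pos_iff.2 hne
    rw [nsqW, wt, loc0_source hx.2, locW, c.left_inv hx.2, norm_smul, norm_zpow]
    conv_lhs => rw [coef_smul (hf.sec x hx.1) (hsec x) hne, norm_smul]
    have h1 : Real.exp (-(-Real.log (‖e x‖ ^ 2) -
        Real.log (ρ x * (‖(jac c x).det‖ ^ 2) ^ (-κ)))) =
        ‖e x‖ ^ 2 * (ρ x * (‖(jac c x).det‖ ^ 2) ^ (-κ)) := by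
      rw [neg_sub, sub_neg_eq_add, Real.exp_add, Real.exp_log (by positivity),
        Real.exp_log (by positivity), mul_comm]
    rw [h1]
    have h2 : (‖(jac c x).det‖ ^ κ) ^ 2 * (‖(jac c x).det‖ ^ 2) ^ (-κ) = 1 := by
      rw [← zpow_natCast, ← zpow_mul, ← zpow_natCast (‖(jac c x).det‖) 2, ← zpow_mul,
        ← zpow_add₀ hJ.ne']
      have : κ * ((2 : ℕ) : ℤ) + ((2 : ℕ) : ℤ) * -κ = 0 := by ring
      rw [this, zpow_zero]
    calc (‖coef e s x‖ * ‖e x‖) ^ 2 * ρ x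
        = (‖coef e s x‖ * ‖e x‖) ^ 2 * ρ x *
          ((‖(jac c x).det‖ ^ κ) ^ 2 * (‖(jac c x).det‖ ^ 2) ^ (-κ)) := by rw [h2, mul_one]
      _ = _ := by ring

/-! ### the weight of a Hermitian metric -/

/-- squared norm of a `K^κ`-valued section, `K` with the metric `1 / det h` -/
def nsq (h : X → Matrix (Fin 2) (Fin 2) ℂ) (κ : ℤ) (s : X → EuclideanSpace ℂ ι) (x : X) : ℝ :=
  ‖s x‖ ^ 2 * (h x).det.re ^ (-κ)

omit [IsManifold 𝓘(ℂ, C2) ω X] in
theorem det_loc11 (c : Ch X) (h : X → Matrix (Fin 2) (Fin 2) ℂ) (z : C2) :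
    (loc11 c h z).det = (jac c (c.symm z)).det * conj (jac c (c.symm z)).det *
      (h (c.symm z)).det := by
  simp only [Matrix.det_fin_two, loc11, Matrix.of_apply, Fin.sum_univ_two, smul_eq_mul, map_sub,
    map_mul]
  ring

omit [IsManifold 𝓘(ℂ, C2) ω X] in
theorem det_pos {h : X → Matrix (Fin 2) (Fin 2) ℂ} (hh : IsHerm h) (x : X) :
    0 < (h x).det.re := by
  have := (hh.posDef x).det_pos
  rw [Complex.lt_def] at this
  exact this.1

omit [IsManifold 𝓘(ℂ, C2) ω X] in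
theorem det_loc11_re {h : X → Matrix (Fin 2) (Fin 2) ℂ} (c : Ch X) (z : C2) :
    (loc11 c h z).det.re = ‖(jac c (c.symm z)).det‖ ^ 2 * (h (c.symm z)).det.re := by
  rw [det_loc11, Complex.mul_conj, Complex.re_ofReal_mul, Complex.normSq_eq_norm_sq]

theorem det_loc11_pos {h : X → Matrix (Fin 2) (Fin 2) ℂ} (hh : IsHerm h) {c : Ch X}
    (hc : c ∈ atlas C2 X) {z : C2} (hz : z ∈ c.target) : 0 < (loc11 c h z).det.re := by
  rw [det_loc11_re]
  have h1 : (jac c (c.symm z)).det ≠ 0 := jac_det_ne_zero hc (c.map_target hz)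
  have h2 : 0 < ‖(jac c (c.symm z)).det‖ := norm_pos_iff.2 h1
  have h3 := det_pos hh (c.symm z)
  positivity

theorem contDiffOn_det {h : X → Matrix (Fin 2) (Fin 2) ℂ} (hh : IsHerm h) {c : Ch X}
    (hc : c ∈ atlas C2 X) :
    ContDiffOn ℝ ∞ (fun z => (loc11 c h z).det.re) c.target := by
  have h2 : ContDiffOn ℝ ∞ (fun z => (loc11 c h z).det) c.target := by
    simp only [Matrix.det_fin_two]
    exact ((hh.smooth c hc 0 0).mul (hh.smooth c hc 1 1)).sub
      ((hh.smooth c hc 0 1).mul (hh.smooth c hc 1 0))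
  exact Complex.reCLM.contDiff.comp_contDiffOn h2

theorem contDiffOn_logdet {h : X → Matrix (Fin 2) (Fin 2) ℂ} (hh : IsHerm h) {c : Ch X}
    (hc : c ∈ atlas C2 X) :
    ContDiffOn ℝ ∞ (fun z => Real.log (loc11 c h z).det.re) c.target :=
  (contDiffOn_det hh hc).log fun z hz => (det_loc11_pos hh hc hz).ne'

/-- the component of the weight `(det h)^(-κ)` -/
theorem locW_det (h : X → Matrix (Fin 2) (Fin 2) ℂ) (κ : ℤ) (c : Ch X) (z : C2) :
    locW κ (fun x => (h x).det.re ^ (-κ)) c z = (loc11 c h z).det.re ^ (-κ) := by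
  rw [locW, det_loc11_re, mul_zpow, mul_comm]

theorem isWt_det {h : X → Matrix (Fin 2) (Fin 2) ℂ} (hh : IsHerm h) (κ : ℤ) :
    IsWt κ fun x => (h x).det.re ^ (-κ) where
  pos x := zpow_pos (det_pos hh x) _
  smooth c hc := by
    have h1 : locW κ (fun x => (h x).det.re ^ (-κ)) c = fun z => (loc11 c h z).det.re ^ (-κ) :=
      funext fun z => locW_det h κ c z
    rw [h1]
    have h2 : ContDiffOn ℝ ∞ (fun z => Real.exp (((-κ : ℤ) : ℝ) *
        Real.log (loc11 c h z).det.re)) c.target :=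
      (contDiffOn_const.mul (contDiffOn_logdet hh hc)).exp
    refine h2.congr fun z hz => ?_
    rw [← Real.rpow_intCast, Real.rpow_def_of_pos (det_loc11_pos hh hc hz), mul_comm]

theorem isWt_one : IsWt 0 fun _ : X => (1 : ℝ) where
  pos x := one_pos
  smooth c hc := by
    have : locW 0 (fun _ : X => (1 : ℝ)) c = fun _ => 1 := by
      funext z
      simp [locW]
    rw [this]
    exact contDiffOn_const

end Vale.Agent.P267.H821
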