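import Vale.Agent.P267.H332.Pair.Loc
import Mathlib.MeasureTheory.Integral.CurveIntegral.Poincare

/-!
# P267 / H821: a pluriharmonic function on a convex set is the real part of a holomorphic function
-/

set_option linter.unusedVariables false

open scoped ContDiff ComplexConjugate Topology
open Set Filter

noncomputable section

namespace Vale.Agent.P267.H821

open FL H332

theorem plh {ψ : C2 → ℝ} {B : Set C2} (hB : Convex ℝ B) (hBo : IsOpen B) (hne : B.Nonempty)
    (hψ : ContDiffOn ℝ ∞ ψ B) (h0 : ∀ z ∈ B, ddz (fun y => (ψ y : ℂ)) z = 0) :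
    ∃ H : C2 → ℂ, DifferentiableOn ℂ H B ∧ ∀ z ∈ B, ψ z = 2 * (H z).re := by
  set u : C2 → ℂ := fun y => (ψ y : ℂ) with hu
  have hua : ∀ z ∈ B, ContDiffAt ℝ ∞ u z := fun z hz =>
    contDiffAt_ofReal (hψ.contDiffAt (hBo.mem_nhds hz))
  have hu2 : ∀ z ∈ B, ContDiffAt ℝ 2 u z := fun z hz =>
    (hua z hz).of_le (WithTop.coe_le_coe.2 le_top)
  have hA : ∀ i, ∀ z ∈ B, DifferentiableAt ℝ (dz i u) z := fun i z hz =>
    differentiableAt_dz (hu2 z hz) i
  have hA0 : ∀ i j, ∀ z ∈ B, dzb j (dz i u) z = 0 := by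
    intro i j z hz
    rw [← dz_dzb_comm (hu2 z hz) i j]
    have := congrFun (congrFun (h0 z hz) i) j
    rwa [ddz_apply] at this
  have hAf : ∀ i, ∀ z ∈ B, ∀ v : C2, fderiv ℝ (dz i u) z v = ∑ j, v j * dz j (dz i u) z := by
    intro i z hz v
    rw [fderiv_eq_wirt]
    refine Finset.sum_congr rfl fun j _ => ?_
    rw [hA0 i j z hz, smul_zero, add_zero, smul_eq_mul]
  set p : Fin 2 → (C2 →L[ℂ] ℂ) := fun i =>
    ContinuousLinearMap.proj (R := ℂ) (φ := fun _ : Fin 2 => ℂ) i with hp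
  set θ : C2 → (C2 →L[ℂ] ℂ) := fun z => dz 0 u z • p 0 + dz 1 u z • p 1 with hθ
  have hθd : ∀ z ∈ B, DifferentiableAt ℝ θ z := fun z hz =>
    ((hA 0 z hz).smul_const (p 0)).add ((hA 1 z hz).smul_const (p 1))
  have hθf : ∀ z ∈ B, ∀ v w : C2, fderiv ℝ θ z v w =
      (fderiv ℝ (dz 0 u) z v) * w 0 + (fderiv ℝ (dz 1 u) z v) * w 1 := by
    intro z hz v w
    have h1 : HasFDerivAt θ ((fderiv ℝ (dz 0 u) z).smulRight (p 0) +
        (fderiv ℝ (dz 1 u) z).smulRight (p 1)) z :=
      ((hA 0 z hz).hasFDerivAt.smul_const (p 0)).add ((hA 1 z hz).hasFDerivAt.smul_const (p 1))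
    rw [h1.fderiv]
    simp [hp]
  obtain ⟨H, hH⟩ := hB.exists_forall_hasFDerivAt_of_fderiv_symmetric hBo
    (show DifferentiableOn ℝ θ B from fun z hz => (hθd z hz).differentiableWithinAt) (by
      intro z hz v w
      rw [hθf z hz, hθf z hz, hAf 0 z hz, hAf 1 z hz, hAf 0 z hz, hAf 1 z hz]
      have hc : dz 0 (dz 1 u) z = dz 1 (dz 0 u) z := dz_dz_comm (hu2 z hz) 0 1
      simp only [Fin.sum_univ_two]
      rw [hc]
      ring)
  have hHd : ∀ z ∈ B, DifferentiableAt ℂ H z := fun z hz => (hH z hz).differentiableAt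
  have hHz : ∀ i, ∀ z ∈ B, dz i H z = dz i u z := by
    intro i z hz
    rw [dz_of_hol (hHd z hz), (hH z hz).fderiv]
    fin_cases i <;> simp [hθ, hp]
  have hHb : ∀ i, ∀ z ∈ B, dzb i H z = 0 := fun i z hz => dzb_of_hol (hHd z hz) i
  set R : C2 → ℂ := fun z => u z - H z - conj (H z) with hR
  have hud : ∀ z ∈ B, DifferentiableAt ℝ u z := fun z hz =>
    (hu2 z hz).differentiableAt (by norm_num)
  have hHr : ∀ z ∈ B, DifferentiableAt ℝ H z := fun z hz => (hHd z hz).restrictScalars ℝ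
  have hcr : ∀ z ∈ B, DifferentiableAt ℝ (fun y => conj (H y)) z := fun z hz =>
    differentiableAt_conj (hHr z hz)
  have hRd : ∀ z ∈ B, DifferentiableAt ℝ R z := fun z hz =>
    ((hud z hz).sub (hHr z hz)).sub (hcr z hz)
  have hub : ∀ i, ∀ z ∈ B, dzb i u z = conj (dz i u z) := by
    intro i z hz
    have h1 : (fun y => conj (u y)) = u := by
      funext y
      simp [hu]
    have h2 := dzb_conj (hud z hz) i
    rwa [h1] at h2
  have hR0 : ∀ z ∈ B, fderiv ℝ R z = 0 := by
    intro z hz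
    ext v
    rw [fderiv_eq_wirt]
    have e1 : ∀ i, dz i R z = 0 := by
      intro i
      have : dz i R z = dz i u z - dz i H z - dz i (fun y => conj (H y)) z := by
        have hs : DifferentiableAt ℝ (fun y => u y - H y) z := (hud z hz).sub (hHr z hz)
        rw [hR, dz_sub (f := fun y => u y - H y) hs (hcr z hz), dz_sub (hud z hz) (hHr z hz)]
      rw [this, dz_conj (hHr z hz), hHb i z hz, hHz i z hz]
      simp
    have e2 : ∀ i, dzb i R z = 0 := by
      intro i
      have : dzb i R z = dzb i u z - dzb i H z - dzb i (fun y => conj (H y)) z := by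
        have hs : DifferentiableAt ℝ (fun y => u y - H y) z := (hud z hz).sub (hHr z hz)
        rw [hR, dzb_sub (f := fun y => u y - H y) hs (hcr z hz), dzb_sub (hud z hz) (hHr z hz)]
      rw [this, dzb_conj (hHr z hz), hHb i z hz, hHz i z hz, hub i z hz]
      simp
    simp [e1, e2]
  obtain ⟨z0, hz0⟩ := hne
  have hconst : ∀ z ∈ B, R z = R z0 := by
    intro z hz
    exact hBo.is_const_of_fderiv_eq_zero hB.isPreconnected
      (fun y hy => (hRd y hy).differentiableWithinAt) (fun y hy => hR0 y hy) hz hz0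
  refine ⟨fun z => H z + R z0 / 2, fun z hz => ((hHd z hz).add_const _).differentiableWithinAt,
    fun z hz => ?_⟩
  have h1 := congrArg Complex.re (hconst z hz)
  simp only [hR, hu, Complex.sub_re, Complex.ofReal_re, Complex.conj_re] at h1
  simp only [Complex.add_re]
  have h2 : (R z0 / 2).re = (R z0).re / 2 := by
    rw [show (2 : ℂ) = ((2 : ℝ) : ℂ) by norm_num, Complex.div_ofReal_re]
  rw [h2]
  simp only [hR, hu, Complex.sub_re, Complex.ofReal_re, Complex.conj_re]
  linarith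

end Vale.Agent.P267.H821
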